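import Mathlib
open Polynomial

namespace Vale.Agent.P199

universe u v
variable {F : Type u} {D : Type v} [Field F] [DivisionRing D] [Algebra F D]

/-- right multiplication operator evaluated at a polynomial -/
lemma aeval_mulRight_apply (a x : D) (p : F[X]) :
    (aeval (LinearMap.mulRight F a) p) x = x * aeval a p := by
  induction p using Polynomial.induction_on' with
  | add p q hp hq => simp [hp, hq, mul_add]
  | monomial n c =>
    simp [aeval_monomial, LinearMap.pow_mulRight, Algebra.algebraMap_eq_smul_one]

lemma semiconj_aeval {a b z : D} (h : z * a = b * z) (q : F[X]) :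
    z * aeval a q = aeval b q * z := by
  induction q using Polynomial.induction_on' with
  | add p q hp hq => simp [hp, hq, mul_add, add_mul]
  | monomial n c =>
    have hpow : z * a ^ n = b ^ n * z := by
      induction n with
      | zero => simp
      | succ k ih => rw [pow_succ, ← mul_assoc, ih, mul_assoc, h, ← mul_assoc, ← pow_succ]
    simp only [aeval_monomial]
    rw [← mul_assoc, ← Algebra.commutes c z, mul_assoc, hpow, mul_assoc]

/-- The ring hom `K[X] → End_F(D)` sending `c` to left mult by `φ c` and `X` to right mult by `a`. -/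
noncomputable def opHom {K : Type*} [Field K] [Algebra F K] (φ : K →ₐ[F] D) (a : D) :
    K[X] →+* Module.End F D :=
  Polynomial.eval₂RingHom' ((Algebra.lmul F D).toRingHom.comp φ.toRingHom)
    (LinearMap.mulRight F a) (by
      intro c
      ext x
      simp [mul_assoc])

lemma opHom_X_sub_C {K : Type*} [Field K] [Algebra F K] (φ : K →ₐ[F] D) (a : D)
    (r : K) (x : D) :
    opHom φ a (X - C r) x = x * a - φ r * x := by
  simp [opHom]

lemma opHom_map {K : Type*} [Field K] [Algebra F K] (φ : K →ₐ[F] D) (a : D)
    (p : F[X]) (x : D) :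
    opHom φ a (p.map (algebraMap F K)) x = x * aeval a p := by
  rw [← aeval_mulRight_apply]
  simp only [opHom, eval₂RingHom', RingHom.coe_mk, MonoidHom.coe_mk, OneHom.coe_mk, eval₂_map]
  congr 1
  rw [aeval_def]
  congr 1
  ext c x
  simp [Algebra.algebraMap_eq_smul_one]

lemma chain {K : Type*} [Field K] [Algebra F K] (φ : K →ₐ[F] D) (a : D)
    (s : Multiset K) :
    ∀ v : D, v ≠ 0 → opHom φ a (s.map (fun r => X - C r)).prod v = 0 →
      ∃ r ∈ s, ∃ z : D, z ≠ 0 ∧ z * a = φ r * z := by
  induction s using Multiset.induction_on with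
  | empty => intro v hv h; simp at h; exact absurd h hv
  | cons r s ih =>
    intro v hv h
    rw [Multiset.map_cons, Multiset.prod_cons, map_mul, Module.End.mul_apply] at h
    by_cases hw : opHom φ a (s.map (fun r => X - C r)).prod v = 0
    · obtain ⟨r', hr', z, hz, hza⟩ := ih v hv hw
      exact ⟨r', Multiset.mem_cons_of_mem hr', z, hz, hza⟩
    · refine ⟨r, Multiset.mem_cons_self r s, _, hw, ?_⟩
      rw [opHom_X_sub_C] at h
      exact sub_eq_zero.mp h

/-- Herstein-type lemma. If `a` does not commute with `y`, `K` is a field with an embedding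
`φ : K → D`, `φ θ = a`, and the minimal polynomial of `a` is separable and splits in `K`, then
some nonzero `z` conjugates `a` to `φ r ≠ a`. -/
lemma exists_conj {K : Type*} [Field K] [Algebra F K] (φ : K →ₐ[F] D) (θ : K) (a y : D)
    (hθ : φ θ = a) (hay : y * a ≠ a * y) (ha : IsIntegral F a)
    (hsep : (minpoly F a).Separable)
    (hsplit : ((minpoly F a).map (algebraMap F K)).Splits) :
    ∃ r : K, ∃ z : D, z ≠ 0 ∧ z * a = φ r * z ∧ φ r ≠ a := by
  classical
  set f := minpoly F a with hf
  set g := f.map (algebraMap F K) with hg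
  have hmonic : g.Monic := (minpoly.monic ha).map _
  have hroot : θ ∈ g.roots := by
    rw [mem_roots hmonic.ne_zero, IsRoot.def, hg, eval_map_algebraMap]
    apply φ.toRingHom.injective
    have : φ (aeval θ f) = aeval (φ θ) f := (aeval_algHom_apply φ θ f).symm
    simp only [AlgHom.toRingHom_eq_coe, RingHom.coe_coe, map_zero]
    rw [this, hθ, hf, minpoly.aeval]
  have hnodup : g.roots.Nodup := nodup_roots (hsep.map)
  have hprod : g = (X - C θ) * ((g.roots.erase θ).map (fun r => X - C r)).prod := by
    conv_lhs => rw [hsplit.eq_prod_roots, hmonic.leadingCoeff, C_1, one_mul,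
      ← Multiset.cons_erase hroot, Multiset.map_cons, Multiset.prod_cons]
  have h0 : opHom φ a g y = 0 := by
    rw [hg, opHom_map, hf, minpoly.aeval, mul_zero]
  rw [hprod, mul_comm, map_mul, Module.End.mul_apply, opHom_X_sub_C, hθ] at h0
  obtain ⟨r, hr, z, hz, hza⟩ := chain φ a _ _ (sub_ne_zero.mpr hay) h0
  refine ⟨r, z, hz, hza, ?_⟩
  intro h
  have : r = θ := φ.toRingHom.injective (by simpa [hθ] using h)
  rw [this] at hr
  exact (Multiset.Nodup.notMem_erase hnodup) hr


/-- If `z a = p(a) z` with `a, z` integral then `F[a, z]` is a finitely generated module. -/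
lemma fg_adjoin_pair (a z : D) (p : F[X]) (ha : IsIntegral F a) (hz : IsIntegral F z)
    (h : z * a = aeval a p * z) :
    (Subalgebra.toSubmodule (Algebra.adjoin F {a, z})).FG := by
  set A := Subalgebra.toSubmodule (Algebra.adjoin F {a}) with hA
  set Z := Subalgebra.toSubmodule (Algebra.adjoin F {z}) with hZ
  set W := A * Z with hW
  have hWfg : W.FG := (ha.fg_adjoin_singleton).mul (hz.fg_adjoin_singleton)
  have h1 : (1 : D) ∈ W := by
    have : (1 : D) * 1 ∈ A * Z := Submodule.mul_mem_mul
      (show (1 : D) ∈ Algebra.adjoin F {a} from one_mem _)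
      (show (1 : D) ∈ Algebra.adjoin F {z} from one_mem _)
    simpa using this
  have haW : ∀ w ∈ W, a * w ∈ W := by
    intro w hw
    refine Submodule.mul_induction_on hw ?_ ?_
    · intro α hα ζ hζ
      rw [← mul_assoc]
      exact Submodule.mul_mem_mul
        (show a * α ∈ Algebra.adjoin F {a} from
          mul_mem (Algebra.subset_adjoin (Set.mem_singleton a)) hα) hζ
    · intro x y hx hy
      rw [mul_add]; exact add_mem hx hy
  have hzW : ∀ w ∈ W, z * w ∈ W := by
    intro w hw
    refine Submodule.mul_induction_on hw ?_ ?_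
    · intro α hα ζ hζ
      have hα' : α ∈ Algebra.adjoin F {a} := hα
      rw [Algebra.adjoin_singleton_eq_range_aeval] at hα'
      obtain ⟨q, rfl⟩ := hα'
      have := semiconj_aeval h q
      simp only [AlgHom.toRingHom_eq_coe, RingHom.coe_coe]
      rw [← mul_assoc, this, mul_assoc]
      refine Submodule.mul_mem_mul ?_
        (show z * ζ ∈ Algebra.adjoin F {z} from
          mul_mem (Algebra.subset_adjoin (Set.mem_singleton z)) hζ)
      show aeval (aeval a p) q ∈ Algebra.adjoin F {a}
      rw [← aeval_comp, Algebra.adjoin_singleton_eq_range_aeval]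
      exact ⟨_, rfl⟩
    · intro x y hx hy
      rw [mul_add]; exact add_mem hx hy
  have key : ∀ x ∈ Algebra.adjoin F {a, z}, ∀ w ∈ W, x * w ∈ W := by
    intro x hx
    induction hx using Algebra.adjoin_induction with
    | mem x hx =>
      rcases hx with rfl | rfl
      · exact haW
      · exact hzW
    | algebraMap r =>
      intro w hw
      rw [← Algebra.smul_def]
      exact W.smul_mem r hw
    | add x y _ _ hx hy =>
      intro w hw
      rw [add_mul]; exact add_mem (hx w hw) (hy w hw)
    | mul x y _ _ hx hy =>
      intro w hw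
      rw [mul_assoc]; exact hx _ (hy w hw)
  have hle : Subalgebra.toSubmodule (Algebra.adjoin F {a, z}) ≤ W := by
    intro x hx
    have := key x hx 1 h1
    simpa using this
  exact Submodule.FG.of_le hWfg hle

end Vale.Agent.P199
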