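import Mathlib
open Polynomial

namespace Vale.Agent.P199

universe u

/-- every finite extension of `F` (in universe `u`) is Galois with cyclic Galois group -/
def AllCyclic (F : Type u) [Field F] : Prop :=
  ∀ (K : Type u) [Field K] [Algebra F K] [FiniteDimensional F K],
    IsGalois F K ∧ IsCyclic (K ≃ₐ[F] K)

lemma subgroup_eq_of_card_eq {G : Type*} [Group G] [Finite G] [IsCyclic G] (H₁ H₂ : Subgroup G)
    (h : Nat.card H₁ = Nat.card H₂) : H₁ = H₂ := by
  classical
  have := Fintype.ofFinite G
  have key : ∀ H : Subgroup G, (H : Set G) = {x : G | x ^ Nat.card H = 1} := by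
    intro H
    have hpos : 0 < Nat.card H := Nat.card_pos
    have hsub : (H : Set G) ⊆ {x : G | x ^ Nat.card H = 1} := by
      intro x hx
      have h1 : (⟨x, hx⟩ : H) ^ Nat.card H = 1 := pow_card_eq_one'
      have h2 := congrArg Subtype.val h1
      rw [SubmonoidClass.coe_pow] at h2
      exact h2
    have hle := IsCyclic.card_pow_eq_one_le (α := G) hpos
    apply Set.eq_of_subset_of_ncard_le hsub
    have h3 : ({x : G | x ^ Nat.card H = 1} : Set G).ncard
        = (Finset.univ.filter (fun a : G => a ^ Nat.card H = 1)).card := by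
      rw [← Set.ncard_coe_finset]
      congr 1
      ext x
      simp
    rw [h3]
    exact hle
  apply SetLike.coe_injective
  rw [key H₁, key H₂, h]

lemma intermediateField_eq_of_finrank_eq {F Ω : Type*} [Field F] [Field Ω] [Algebra F Ω]
    [FiniteDimensional F Ω] [IsGalois F Ω] [IsCyclic (Ω ≃ₐ[F] Ω)] (E₁ E₂ : IntermediateField F Ω)
    (h : Module.finrank F E₁ = Module.finrank F E₂) : E₁ = E₂ := by
  have h1 := Module.finrank_mul_finrank F E₁ Ω
  have h2 := Module.finrank_mul_finrank F E₂ Ω
  have hpos : 0 < Module.finrank F E₁ := Module.finrank_pos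
  have h3 : Module.finrank E₁ Ω = Module.finrank E₂ Ω := by
    rw [h] at h1 hpos
    exact Nat.eq_of_mul_eq_mul_left hpos (h1.trans h2.symm)
  have h4 : Nat.card E₁.fixingSubgroup = Nat.card E₂.fixingSubgroup := by
    rw [IsGalois.card_fixingSubgroup_eq_finrank, IsGalois.card_fixingSubgroup_eq_finrank, h3]
  have h5 := subgroup_eq_of_card_eq _ _ h4
  rw [← IsGalois.fixedField_fixingSubgroup E₁, h5, IsGalois.fixedField_fixingSubgroup]

/-- Uniqueness of extensions of given degree, in the form: an irreducible polynomial of degree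
`[M : F]` has a root in `M`. -/
lemma exists_root_of_natDegree_eq {F : Type u} [Field F] (hF : AllCyclic F) (M : Type u) [Field M]
    [Algebra F M] [FiniteDimensional F M] (g : F[X]) (hg : Irreducible g)
    (hdeg : g.natDegree = Module.finrank F M) : ∃ y : M, aeval y g = 0 := by
  let Ω := (g.map (algebraMap F M)).SplittingField
  have : FiniteDimensional F Ω := FiniteDimensional.trans F M Ω
  obtain ⟨hGal, hCyc⟩ := hF Ω
  have hsplit : ((g.map (algebraMap F M)).map (algebraMap M Ω)).Splits :=
    SplittingField.splits _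
  have hdeg' : ((g.map (algebraMap F M)).map (algebraMap M Ω)).degree ≠ 0 := by
    rw [degree_map, degree_map]
    exact (Polynomial.degree_pos_of_irreducible hg).ne'
  obtain ⟨y, hy⟩ := hsplit.exists_eval_eq_zero hdeg'
  have hy' : aeval y g = 0 := by
    rw [map_map, ← IsScalarTower.algebraMap_eq, eval_map_algebraMap] at hy
    exact hy
  have hint : IsIntegral F y := Algebra.IsIntegral.isIntegral y
  have hmin : (minpoly F y).natDegree = g.natDegree := by
    have := minpoly.eq_of_irreducible hg hy'
    rw [← this, natDegree_mul_C (by simpa using hg.ne_zero)]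
  let E₁ : IntermediateField F Ω := IntermediateField.adjoin F {y}
  let E₂ : IntermediateField F Ω := (IsScalarTower.toAlgHom F M Ω).fieldRange
  have hE₁ : Module.finrank F E₁ = g.natDegree := by
    rw [← hmin]
    exact IntermediateField.adjoin.finrank hint
  have hE₂ : Module.finrank F E₂ = Module.finrank F M :=
    (AlgEquiv.ofInjectiveField (IsScalarTower.toAlgHom F M Ω)).toLinearEquiv.finrank_eq.symm
  have hEq : E₁ = E₂ := intermediateField_eq_of_finrank_eq E₁ E₂ (by rw [hE₁, hE₂, hdeg])
  have hyE : y ∈ E₂ := hEq ▸ IntermediateField.mem_adjoin_simple_self F y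
  obtain ⟨x, hx⟩ := hyE
  refine ⟨x, ?_⟩
  have hx' : algebraMap M Ω x = y := hx
  apply (algebraMap M Ω).injective
  rw [map_zero, ← hy', ← hx']
  exact (aeval_algebraMap_apply Ω x g).symm


/-- `AllCyclic` passes to finite extensions. -/
lemma AllCyclic.tower {F : Type u} [Field F] (hF : AllCyclic F) (Z : Type u) [Field Z]
    [Algebra F Z] [FiniteDimensional F Z] : AllCyclic Z := by
  intro K _ _ _
  let _ : Algebra F K := ((algebraMap Z K).comp (algebraMap F Z)).toAlgebra
  have : IsScalarTower F Z K := IsScalarTower.of_algebraMap_eq (fun _ => rfl)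
  have : FiniteDimensional F K := FiniteDimensional.trans F Z K
  obtain ⟨hGal, hCyc⟩ := hF K
  refine ⟨IsGalois.tower_top_of_isGalois F Z K, ?_⟩
  exact isCyclic_of_injective (AlgEquiv.restrictScalarsHom F : (K ≃ₐ[Z] K) →* (K ≃ₐ[F] K))
    (AlgEquiv.restrictScalars_injective F)

/-- Key commutative lemma: over a field all of whose finite extensions are cyclic, an element
fixed by an automorphism `τ` of prime order `l` of a finite extension `L` is an `l`-th power
in `L`. -/
lemma exists_pow_eq_of_fixed {F : Type u} [Field F] (hF : AllCyclic F) (L : Type u) [Field L]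
    [Algebra F L] [FiniteDimensional F L] (τ : L ≃ₐ[F] L) (l : ℕ) (hl : l.Prime)
    (hτ : orderOf τ = l) (c : L) (hc : τ c = c) : ∃ u : L, u ^ l = c := by
  let Z : IntermediateField F L := IntermediateField.fixedField (Subgroup.zpowers τ)
  have hcZ : c ∈ Z := by
    rw [IntermediateField.mem_fixedField_iff]
    intro g hg
    obtain ⟨k, rfl⟩ := Subgroup.mem_zpowers_iff.mp hg
    have hfix : ∀ g : L ≃ₐ[F] L, g c = c → g⁻¹ c = c := by
      intro g hg
      have : g⁻¹ (g c) = c := by
        rw [← AlgEquiv.mul_apply]; simp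
      rwa [hg] at this
    have hpow : ∀ n : ℕ, (τ ^ n) c = c := by
      intro n
      induction n with
      | zero => simp
      | succ n ih => rw [pow_succ, AlgEquiv.mul_apply, hc, ih]
    cases k with
    | ofNat n => simpa using hpow n
    | negSucc n =>
      rw [zpow_negSucc]
      exact hfix _ (hpow _)
  have hrank : Module.finrank Z L = l := by
    rw [IntermediateField.finrank_fixedField_eq_card, Nat.card_zpowers, hτ]
  by_cases h : ∃ b : Z, b ^ l = ⟨c, hcZ⟩
  · obtain ⟨b, hb⟩ := h
    exact ⟨b, by simpa using congrArg Subtype.val hb⟩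
  · push Not at h
    have hirr : Irreducible (X ^ l - C (⟨c, hcZ⟩ : Z)) := X_pow_sub_C_irreducible_of_prime hl h
    obtain ⟨y, hy⟩ := exists_root_of_natDegree_eq (hF.tower Z) L _ hirr
      (by rw [natDegree_X_pow_sub_C, hrank])
    refine ⟨y, ?_⟩
    simp only [map_sub, map_pow, aeval_X, aeval_C] at hy
    exact sub_eq_zero.mp hy

end Vale.Agent.P199
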