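import Mathlib
import Vale.Agent.Lib.P199.Conj
import Vale.Agent.Lib.P199.CyclicFields
open Polynomial

namespace Vale.Agent.P199

universe u
variable {F L D : Type u} [Field F] [Field L] [Algebra F L] [DivisionRing D] [Algebra F D]

lemma conj_pow {φ : L →ₐ[F] D} {τ : L ≃ₐ[F] L} {z : D}
    (hconj : ∀ k, z * φ k = φ (τ k) * z) (n : ℕ) (k : L) :
    z ^ n * φ k = φ ((τ ^ n) k) * z ^ n := by
  induction n generalizing k with
  | zero => simp
  | succ n ih =>
    rw [pow_succ, mul_assoc, hconj, ← mul_assoc, ih, mul_assoc, pow_succ τ, AlgEquiv.mul_apply]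

lemma mul_pow_twisted {φ : L →ₐ[F] D} {τ : L ≃ₐ[F] L} {z : D}
    (hconj : ∀ k, z * φ k = φ (τ k) * z) (v : L) (n : ℕ) :
    (φ v * z) ^ n = φ (∏ j ∈ Finset.range n, (τ ^ j) v) * z ^ n := by
  induction n with
  | zero => simp
  | succ n ih =>
    rw [pow_succ, ih, Finset.prod_range_succ, map_mul, mul_assoc, ← mul_assoc (z ^ n),
      conj_pow hconj, pow_succ]
    simp only [mul_assoc]

lemma opHom_eigen (φ : L →ₐ[F] D) (k₀ μ : L) (x : D) (hx : x * φ k₀ = φ μ * x) (P : L[X]) :
    opHom φ (φ k₀) P x = φ (eval μ P) * x := by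
  have hpow : ∀ n : ℕ, x * φ k₀ ^ n = φ μ ^ n * x := by
    intro n
    induction n with
    | zero => simp
    | succ n ih => rw [pow_succ, ← mul_assoc, ih, mul_assoc, hx, ← mul_assoc, ← pow_succ]
  induction P using Polynomial.induction_on' with
  | add p q hp hq => simp [hp, hq, add_mul]
  | monomial n r =>
    simp only [opHom, eval₂RingHom', RingHom.coe_mk, MonoidHom.coe_mk, OneHom.coe_mk,
      eval₂_monomial, eval_monomial, map_mul, map_pow]
    simp [LinearMap.pow_mulRight, hpow, mul_assoc]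


lemma pow_apply_ne {τ : L ≃ₐ[F] L} {l : ℕ} (hl : l.Prime) (hτ : orderOf τ = l) {k₀ : L}
    (hk : τ k₀ ≠ k₀) {j : ℕ} (hj0 : 0 < j) (hjl : j < l) : (τ ^ j) k₀ ≠ k₀ := by
  intro h
  have hcop : j.Coprime (orderOf τ) := by
    rw [hτ, Nat.coprime_comm]
    exact (Nat.Prime.coprime_iff_not_dvd hl).mpr (fun hd => by
      have := Nat.le_of_dvd hj0 hd
      omega)
  obtain ⟨m, hm⟩ := exists_pow_eq_self_of_coprime hcop
  have hfix : ∀ n : ℕ, ((τ ^ j) ^ n) k₀ = k₀ := by
    intro n
    induction n with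
    | zero => simp
    | succ n ih => rw [pow_succ, AlgEquiv.mul_apply, h, ih]
  apply hk
  have := hfix m
  rwa [hm] at this

lemma pow_apply_injOn {τ : L ≃ₐ[F] L} {l : ℕ} (hl : l.Prime) (hτ : orderOf τ = l) {k₀ : L}
    (hk : τ k₀ ≠ k₀) {i j : ℕ} (hj : j < l) (hij : i < j) :
    (τ ^ i) k₀ ≠ (τ ^ j) k₀ := by
  intro h
  have h1 : j = i + (j - i) := by omega
  rw [h1, pow_add, AlgEquiv.mul_apply] at h
  have h2 := (τ ^ i).injective h
  exact pow_apply_ne hl hτ hk (by omega) (by omega) h2.symm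

/-- the powers `w^j`, `j < l`, are independent enough: their sum is non-zero -/
lemma geom_sum_ne_zero {φ : L →ₐ[F] D} {τ : L ≃ₐ[F] L} {w : D}
    (hconj : ∀ k, w * φ k = φ (τ k) * w) {l : ℕ} (hl : l.Prime) (hτ : orderOf τ = l) :
    ∑ j ∈ Finset.range l, w ^ j ≠ 0 := by
  classical
  intro hsum
  have hne : τ ≠ 1 := by
    intro h
    rw [h, orderOf_one] at hτ
    exact hl.one_lt.ne hτ
  obtain ⟨k₀, hk⟩ : ∃ k₀, τ k₀ ≠ k₀ := by
    by_contra hcon
    push Not at hcon
    exact hne (AlgEquiv.ext hcon)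
  set Q : L[X] := ∏ j ∈ (Finset.range l).erase 0, (X - C ((τ ^ j) k₀)) with hQ
  have h0 := congrArg (opHom φ (φ k₀) Q) hsum
  rw [map_sum, map_zero] at h0
  have hterm : ∀ j ∈ Finset.range l, opHom φ (φ k₀) Q (w ^ j)
      = if j = 0 then φ (eval k₀ Q) else 0 := by
    intro j hj
    rw [opHom_eigen φ k₀ ((τ ^ j) k₀) (w ^ j) (conj_pow hconj j k₀)]
    split_ifs with hj0
    · subst hj0; simp
    · have : eval ((τ ^ j) k₀) Q = 0 := by
        rw [hQ, eval_prod]
        apply Finset.prod_eq_zero (Finset.mem_erase.mpr ⟨hj0, hj⟩)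
        simp
      rw [this]; simp
  rw [Finset.sum_congr rfl hterm, Finset.sum_ite_eq' (Finset.range l) 0] at h0
  simp only [Finset.mem_range, hl.pos, if_true] at h0
  have hev : eval k₀ Q ≠ 0 := by
    rw [hQ, eval_prod]
    apply Finset.prod_ne_zero_iff.mpr
    intro j hj
    obtain ⟨hj0, hjl⟩ := Finset.mem_erase.mp hj
    simp only [eval_sub, eval_X, eval_C]
    exact sub_ne_zero.mpr (pow_apply_ne hl hτ hk (Nat.pos_of_ne_zero hj0)
      (Finset.mem_range.mp hjl)).symm
  exact hev ((map_eq_zero φ).mp h0)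

/-- if `w` induces `τ` of prime order `l` then `w ^ l ≠ 1` -/
lemma pow_ne_one {φ : L →ₐ[F] D} {τ : L ≃ₐ[F] L} {w : D}
    (hconj : ∀ k, w * φ k = φ (τ k) * w) {l : ℕ} (hl : l.Prime) (hτ : orderOf τ = l) :
    w ^ l ≠ 1 := by
  intro h
  have h1 : (∑ j ∈ Finset.range l, w ^ j) * (w - 1) = 0 := by
    rw [geom_sum_mul, h, sub_self]
  rcases mul_eq_zero.mp h1 with h2 | h2
  · exact geom_sum_ne_zero hconj hl hτ h2
  · have hw : w = 1 := sub_eq_zero.mp h2
    have hne : τ ≠ 1 := by
      intro h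
      rw [h, orderOf_one] at hτ
      exact hl.one_lt.ne hτ
    apply hne
    ext k
    have := hconj k
    rw [hw, one_mul, mul_one] at this
    exact (φ.toRingHom.injective this).symm


lemma not_range {φ : L →ₐ[F] D} {τ : L ≃ₐ[F] L} {w : D} (hw0 : w ≠ 0)
    (hconj : ∀ k, w * φ k = φ (τ k) * w) (hne : τ ≠ 1) (s : L) : w ≠ φ s := by
  intro h
  have hs : s ≠ 0 := by
    rintro rfl
    exact hw0 (by simpa using h)
  apply hne
  ext k
  have h1 := hconj k
  rw [h, ← map_mul, ← map_mul] at h1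
  have h2 := φ.toRingHom.injective h1
  have h3 : s * k = s * τ k := by rw [h2, mul_comm]
  exact (mul_left_cancel₀ hs h3).symm

lemma pow_fixed {τ : L ≃ₐ[F] L} {x : L} (hx : τ x = x) (n : ℕ) : (τ ^ n) x = x := by
  induction n with
  | zero => simp
  | succ n ih => rw [pow_succ, AlgEquiv.mul_apply, hx, ih]

/-- first half: reduction to `l = 2` and `w ^ 2 = -1` -/
lemma core_reduction (hF : AllCyclic F) [FiniteDimensional F L] (φ : L →ₐ[F] D) (τ : L ≃ₐ[F] L)
    (z : D) (hz : z ≠ 0) (hconj : ∀ k, z * φ k = φ (τ k) * z) (l : ℕ) (hl : l.Prime)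
    (hτ : orderOf τ = l) (c : L) (hc : φ c = z ^ l) :
    l = 2 ∧ (1 : L) ≠ -1 ∧ ∃ w : D, w ≠ 0 ∧ (∀ k, w * φ k = φ (τ k) * w) ∧ w ^ 2 = -1 := by
  have hτc : τ c = c := by
    have h1 := hconj c
    rw [hc, ← pow_succ', pow_succ, ← hc] at h1
    exact (φ.toRingHom.injective (mul_right_cancel₀ hz h1)).symm
  have hc0 : c ≠ 0 := by
    rintro rfl
    rw [map_zero] at hc
    exact pow_ne_zero l hz hc.symm
  obtain ⟨u, hu⟩ := exists_pow_eq_of_fixed hF L τ l hl hτ c hτc
  have hu0 : u ≠ 0 := by
    rintro rfl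
    rw [zero_pow hl.ne_zero] at hu
    exact hc0 hu.symm
  set w : D := φ u⁻¹ * z with hwdef
  have hw0 : w ≠ 0 := mul_ne_zero ((map_ne_zero φ).mpr (inv_ne_zero hu0)) hz
  have hw : ∀ k, w * φ k = φ (τ k) * w := by
    intro k
    rw [hwdef, mul_assoc, hconj, ← mul_assoc, ← mul_assoc, ← map_mul, ← map_mul, mul_comm]
  set η : L := (∏ j ∈ Finset.range l, (τ ^ j) u⁻¹) * c with hη
  have hwl : w ^ l = φ η := by
    rw [hwdef, mul_pow_twisted hconj, hη, map_mul, hc]
  have hη1 : η ≠ 1 := by
    intro h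
    apply pow_ne_one hw hl hτ
    rw [hwl, h, map_one]
  have hηl : η ^ l = 1 := by
    rw [hη, mul_pow, ← Finset.prod_pow]
    have : ∀ j ∈ Finset.range l, ((τ ^ j) u⁻¹) ^ l = c⁻¹ := by
      intro j _
      rw [← map_pow, inv_pow, hu, map_inv₀, pow_fixed hτc]
    rw [Finset.prod_congr rfl this, Finset.prod_const, Finset.card_range, ← mul_pow,
      inv_mul_cancel₀ hc0, one_pow]
  have hτl : τ ^ l = 1 := by rw [← hτ]; exact pow_orderOf_eq_one τ
  have hτη : τ η = η := by
    rw [hη, map_mul, hτc, map_prod]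
    congr 1
    have h1 : ∀ j, τ ((τ ^ j) u⁻¹) = (τ ^ (j + 1)) u⁻¹ := by
      intro j
      rw [pow_succ', AlgEquiv.mul_apply]
    simp only [h1]
    have h2 := Finset.prod_range_succ (fun j => (τ ^ j) u⁻¹) l
    have h3 := Finset.prod_range_succ' (fun j => (τ ^ j) u⁻¹) l
    rw [h3, hτl] at h2
    simp only [pow_zero, AlgEquiv.one_apply] at h2
    exact mul_right_cancel₀ (inv_ne_zero hu0) h2
  have : Fact l.Prime := ⟨hl⟩
  have hprim : IsPrimitiveRoot η l := by
    have := IsPrimitiveRoot.orderOf η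
    rwa [orderOf_eq_prime hηl hη1] at this
  set ξ : L := τ u * u⁻¹ with hξ
  have hξl : ξ ^ l = 1 := by
    rw [hξ, mul_pow, ← map_pow, inv_pow, hu, hτc, mul_inv_cancel₀ hc0]
  have : NeZero l := ⟨hl.ne_zero⟩
  obtain ⟨i, -, hi⟩ := hprim.eq_pow_of_pow_eq_one hξl
  have hτξ : τ ξ = ξ := by rw [← hi, map_pow, hτη]
  have hτu : τ u = ξ * u := by
    rw [hξ, mul_assoc, inv_mul_cancel₀ hu0, mul_one]
  have hpowu : ∀ j : ℕ, (τ ^ j) u = ξ ^ j * u := by
    intro j
    induction j with
    | zero => simp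
    | succ j ih =>
      rw [pow_succ, AlgEquiv.mul_apply, hτu, map_mul, pow_fixed hτξ, ih]
      ring
  have hηval : η * ξ ^ (∑ j ∈ Finset.range l, j) = 1 := by
    have h1 : ∀ j ∈ Finset.range l, (τ ^ j) u⁻¹ = (ξ ^ j)⁻¹ * u⁻¹ := by
      intro j _
      rw [map_inv₀, hpowu, mul_inv]
    rw [hη, Finset.prod_congr rfl h1, Finset.prod_mul_distrib, Finset.prod_const,
      Finset.card_range, Finset.prod_inv_distrib, Finset.prod_pow_eq_pow_sum, inv_pow, hu]
    have hξ0 : ξ ^ (∑ j ∈ Finset.range l, j) ≠ 0 := by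
      apply pow_ne_zero
      intro h0
      rw [h0, zero_pow hl.ne_zero] at hξl
      exact zero_ne_one hξl
    field_simp
  have hl2 : l = 2 := by
    rcases hl.eq_two_or_odd' with h | h
    · exact h
    · exfalso
      obtain ⟨m, hm⟩ := h
      have hs : ∑ j ∈ Finset.range l, j = l * m := by
        rw [Finset.sum_range_id, hm]
        have : (2 * m + 1) * (2 * m + 1 - 1) = 2 * ((2 * m + 1) * m) := by
          simp; ring
        rw [this]
        simp
      rw [hs, pow_mul, hξl, one_pow, mul_one] at hηval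
      exact hη1 hηval
  subst hl2
  have hηm : η = -1 := by
    have : (η - 1) * (η + 1) = 0 := by ring_nf; rw [hηl]; ring
    rcases mul_eq_zero.mp this with h | h
    · exact absurd (sub_eq_zero.mp h) hη1
    · exact eq_neg_of_add_eq_zero_left h
  refine ⟨rfl, ?_, w, hw0, hw, ?_⟩
  · intro h
    exact hη1 (by rw [hηm, ← h])
  · rw [hwl, hηm, map_neg, map_one]


/-- second half: the quaternionic case is impossible when `-1` is a sum of squares in `F` -/
lemma core_quaternion (hF : AllCyclic F) [FiniteDimensional F L] (φ : L →ₐ[F] D) (τ : L ≃ₐ[F] L)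
    (hτ : orderOf τ = 2) (h2 : (1 : L) ≠ -1) (w : D) (hw0 : w ≠ 0)
    (hw : ∀ k, w * φ k = φ (τ k) * w) (hw2 : w ^ 2 = -1) (hsq : IsSumSq (-1 : F)) : False := by
  have hne : τ ≠ 1 := by
    intro h
    rw [h, orderOf_one] at hτ
    omega
  have hroot : ∀ x : L, τ x = x → ∃ r : L, r ^ 2 = x :=
    fun x hx => exists_pow_eq_of_fixed hF L τ 2 Nat.prime_two hτ x hx
  obtain ⟨i, hi⟩ := hroot (-1) (by simp)
  have hτi : τ i = i ∨ τ i = -i := by
    apply sq_eq_sq_iff_eq_or_eq_neg.mp
    rw [← map_pow, hi]; simp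
  rcases hτi with hτi | hτi
  · -- `i` commutes with `w`
    have hcomm : w * φ i = φ i * w := by rw [hw, hτi]
    have hprod : (w - φ i) * (w + φ i) = 0 := by
      have : (w - φ i) * (w + φ i) = w ^ 2 + (w * φ i - φ i * w) - φ (i ^ 2) := by
        rw [map_pow]; noncomm_ring
      rw [this, hcomm, hw2, hi]; simp
    rcases mul_eq_zero.mp hprod with h | h
    · exact not_range hw0 hw hne i (sub_eq_zero.mp h)
    · exact not_range hw0 hw hne (-i) (by rw [map_neg]; exact eq_neg_of_add_eq_zero_left h)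
  · -- every fixed element is plus or minus a fixed square
    have hfix : ∀ x : L, τ x = x → ∃ r : L, τ r = r ∧ (r ^ 2 = x ∨ r ^ 2 = -x) := by
      intro x hx
      obtain ⟨r, hr⟩ := hroot x hx
      have : τ r = r ∨ τ r = -r := by
        apply sq_eq_sq_iff_eq_or_eq_neg.mp
        rw [← map_pow, hr, hx]
      rcases this with h | h
      · exact ⟨r, h, Or.inl hr⟩
      · refine ⟨r * i, by rw [map_mul, h, hτi]; ring, Or.inr ?_⟩
        rw [mul_pow, hr, hi]; ring
    obtain ⟨α, β, hα, hβ, hsum⟩ : ∃ α β : L, τ α = α ∧ τ β = β ∧ 1 + α ^ 2 + β ^ 2 = 0 := by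
      by_contra hcon
      push Not at hcon
      have hind : ∀ s : F, IsSumSq s → ∃ r : L, τ r = r ∧ r ^ 2 = algebraMap F L s := by
        intro s hs
        induction hs with
        | zero => exact ⟨0, by simp, by simp⟩
        | sq_add a hs ih =>
          obtain ⟨r', hr', hr's⟩ := ih
          set t : L := algebraMap F L a with ht
          have htfix : τ t = t := by rw [ht]; exact τ.commutes a
          obtain ⟨r, hr, hrr⟩ := hfix (t ^ 2 + r' ^ 2) (by rw [map_add, map_pow, map_pow, htfix, hr'])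
          rcases hrr with h | h
          · refine ⟨r, hr, ?_⟩
            rw [h, map_add, map_mul, ← hr's, ← ht]; ring
          · by_cases hr0 : r = 0
            · refine ⟨0, by simp, ?_⟩
              rw [hr0] at h
              rw [map_add, map_mul, ← hr's, ← ht]
              have : t ^ 2 + r' ^ 2 = 0 := by
                have h' : (0 : L) ^ 2 = -(t ^ 2 + r' ^ 2) := h
                rw [zero_pow two_ne_zero] at h'
                exact neg_eq_zero.mp h'.symm
              rw [← pow_two, this]; simp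
            · exfalso
              apply hcon (t / r) (r' / r) (by rw [map_div₀, htfix, hr]) (by rw [map_div₀, hr', hr])
              field_simp
              rw [h]; ring
      obtain ⟨r, hr, hrr⟩ := hind (-1) hsq
      apply hcon r 0 hr (by simp)
      rw [hrr]; simp
    set p : D := φ (α * i) with hp
    set q : D := φ β with hq
    have hwp : w * p = -(p * w) := by
      rw [hp, hw, map_mul, hα, hτi, mul_neg, map_neg, neg_mul]
    have hwq : w * q = q * w := by rw [hq, hw, hβ]
    have hpq : p * q = q * p := by rw [hp, hq, ← map_mul, ← map_mul, mul_comm]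
    have hp2 : p * p = -φ (α ^ 2) := by
      rw [hp, ← map_mul, ← map_neg]
      congr 1
      have : α * i * (α * i) = α ^ 2 * i ^ 2 := by ring
      rw [this, hi]; ring
    have hq2 : q * q = φ (β ^ 2) := by rw [hq, ← map_mul, pow_two]
    have hww : w * w = -1 := by rw [← pow_two, hw2]
    have hX : (p + q * w) * (p + q * w) = -φ (α ^ 2) - φ (β ^ 2) := by
      have e1 : (p + q * w) * (p + q * w)
          = p * p + p * q * w + q * (w * p) + q * (w * q) * w := by noncomm_ring
      rw [e1, hwp, hwq, hpq, hp2]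
      have e2 : q * (q * w) * w = (q * q) * (w * w) := by noncomm_ring
      rw [e2, hq2, hww]
      noncomm_ring
    have hprod : (1 + (p + q * w)) * (1 - (p + q * w)) = 0 := by
      have e1 : (1 + (p + q * w)) * (1 - (p + q * w)) = 1 - (p + q * w) * (p + q * w) := by
        noncomm_ring
      rw [e1, hX]
      have : (1 : D) - (-φ (α ^ 2) - φ (β ^ 2)) = φ (1 + α ^ 2 + β ^ 2) := by
        simp only [map_add, map_one]; noncomm_ring
      rw [this, hsum, map_zero]
    -- conclude
    have hfin : ∀ e : L, τ e = e → e ≠ 0 → q * w = φ (e - α * i) ∨ q * w = φ (-e - α * i) →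
        e = 1 → False := by
      intro e _ _ hcase he
      subst he
      by_cases hβ0 : β = 0
      · have hq0 : q = 0 := by rw [hq, hβ0, map_zero]
        rw [hq0, zero_mul] at hcase
        rcases hcase with h | h
        · have h1 : (1 : L) - α * i = 0 := ((map_eq_zero φ).mp h.symm)
          have h3 := congrArg τ h1
          rw [map_sub, map_mul, hα, hτi, map_one, map_zero] at h3
          apply h2
          have : (1 : L) + 1 = 0 := by linear_combination h1 + h3
          exact eq_neg_of_add_eq_zero_left this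
        · have h1 : -(1 : L) - α * i = 0 := ((map_eq_zero φ).mp h.symm)
          have h3 := congrArg τ h1
          rw [map_sub, map_mul, hα, hτi, map_neg, map_one, map_zero] at h3
          apply h2
          have : (1 : L) + 1 = 0 := by linear_combination -h1 - h3
          exact eq_neg_of_add_eq_zero_left this
      · have hq0 : q ≠ 0 := (map_ne_zero φ).mpr hβ0
        rcases hcase with h | h
        · apply not_range hw0 hw hne (β⁻¹ * (1 - α * i))
          rw [map_mul, ← h, ← mul_assoc, map_inv₀, ← hq, inv_mul_cancel₀ hq0, one_mul]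
        · apply not_range hw0 hw hne (β⁻¹ * (-1 - α * i))
          rw [map_mul, ← h, ← mul_assoc, map_inv₀, ← hq, inv_mul_cancel₀ hq0, one_mul]
    apply hfin 1 (by simp) one_ne_zero _ rfl
    rcases mul_eq_zero.mp hprod with h | h
    · right
      have : q * w = -1 - p := by
        have := eq_neg_of_add_eq_zero_right h
        rw [← sub_eq_iff_eq_add'.mpr this.symm]
      rw [this, hp]; simp
    · left
      have : q * w = 1 - p := by
        have := sub_eq_zero.mp h
        rw [this]; noncomm_ring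
      rw [this, hp]; simp

end Vale.Agent.P199
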