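import Mathlib
import Vale.Agent.Lib.P199.Core
open Polynomial

namespace Vale.Agent.P199

universe u
variable {F D : Type u} [Field F] [DivisionRing D] [Algebra F D]

/-- Subalgebra form of the core argument. -/
lemma apply_core (hF : AllCyclic F) (hsq : IsSumSq (-1 : F)) (S : Subalgebra F D)
    (hS : ∀ x ∈ S, ∀ y ∈ S, x * y = y * x) [FiniteDimensional F S] (z : D) (hz : z ≠ 0)
    (hnorm : ∀ x ∈ S, z * x * z⁻¹ ∈ S) (l : ℕ) (hl : l.Prime) (hc : z ^ l ∈ S)
    (a : D) (ha : a ∈ S) (hne : z * a * z⁻¹ ≠ a) : False := by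
  let _ : Field S :=
    { divisionRingOfFiniteDimensional F S with
      mul_comm := fun x y => Subtype.ext (hS x x.2 y y.2) }
  let φ : S →ₐ[F] D := S.val
  let τ₀ : S →ₐ[F] S :=
    { toFun := fun x => ⟨z * x * z⁻¹, hnorm x x.2⟩
      map_one' := by
        apply Subtype.ext
        simp [hz]
      map_mul' := by
        intro x y
        apply Subtype.ext
        simp only [Subalgebra.coe_mul]
        calc z * (↑x * ↑y) * z⁻¹ = z * ↑x * (z⁻¹ * z) * ↑y * z⁻¹ := by
              rw [inv_mul_cancel₀ hz]; simp [mul_assoc]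
          _ = z * ↑x * z⁻¹ * (z * ↑y * z⁻¹) := by simp [mul_assoc]
      map_zero' := by
        apply Subtype.ext
        simp
      map_add' := by
        intro x y
        apply Subtype.ext
        simp [mul_add, add_mul]
      commutes' := by
        intro r
        apply Subtype.ext
        simp only [Subalgebra.coe_algebraMap]
        rw [← Algebra.commutes, mul_assoc, mul_inv_cancel₀ hz, mul_one] }
  let τ : S ≃ₐ[F] S := AlgEquiv.ofBijective τ₀ (AlgHom.bijective τ₀)
  have hτval : ∀ k : S, ((τ k : S) : D) = z * k * z⁻¹ := fun k => rfl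
  have hconj : ∀ k : S, z * φ k = φ (τ k) * z := by
    intro k
    show z * (k : D) = ((τ k : S) : D) * z
    rw [hτval, mul_assoc, inv_mul_cancel₀ hz, mul_one]
  have hτl : τ ^ l = 1 := by
    ext k
    have h1 := conj_pow hconj l k
    have h2 : z ^ l * φ k = φ k * z ^ l := hS _ hc _ k.2
    rw [h2] at h1
    have h3 := mul_right_cancel₀ (pow_ne_zero l hz) h1
    exact congrArg Subtype.val (φ.toRingHom.injective h3).symm
  have hτ1 : τ ≠ 1 := by
    intro h
    apply hne
    have := hτval ⟨a, ha⟩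
    rw [h] at this
    exact this.symm
  have : Fact l.Prime := ⟨hl⟩
  have hord : orderOf τ = l := orderOf_eq_prime hτl hτ1
  obtain ⟨hl2, h2, w, hw0, hw, hw2⟩ :=
    core_reduction hF φ τ z hz hconj l hl hord ⟨z ^ l, hc⟩ rfl
  subst hl2
  exact core_quaternion hF φ τ hord h2 w hw0 hw hw2 hsq


theorem comm_of_allCyclic (hF : AllCyclic F) (hsq : IsSumSq (-1 : F)) [Algebra.IsAlgebraic F D] :
    ∀ x y : D, x * y = y * x := by
  by_contra hcon
  push Not at hcon
  obtain ⟨y, a, hya⟩ := hcon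
  have hint : ∀ x : D, IsIntegral F x := fun x => (Algebra.IsAlgebraic.isAlgebraic x).isIntegral
  have ha : IsIntegral F a := hint a
  set f := minpoly F a with hf
  have hirr : Irreducible f := minpoly.irreducible ha
  have : Fact (Irreducible f) := ⟨hirr⟩
  let K := AdjoinRoot f
  have : FiniteDimensional F K := (AdjoinRoot.powerBasis hirr.ne_zero).finite
  obtain ⟨hG, -⟩ := hF K
  let φ₀ : K →ₐ[F] D := Ideal.Quotient.liftₐ (Ideal.span {f}) (aeval a) (by
    intro p hp
    obtain ⟨q, rfl⟩ := Ideal.mem_span_singleton.mp hp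
    simp [hf])
  have hφ : ∀ p : F[X], φ₀ (AdjoinRoot.mk f p) = aeval a p := fun p => rfl
  have hθ : φ₀ (AdjoinRoot.root f) = a := by
    have := hφ X
    simpa using this
  have hmin : minpoly F (AdjoinRoot.root f) = f := by
    rw [AdjoinRoot.minpoly_root hirr.ne_zero, (minpoly.monic ha).leadingCoeff]
    simp
  have hsep : f.Separable := by
    have := Algebra.IsSeparable.isSeparable F (AdjoinRoot.root f)
    rwa [IsSeparable, hmin] at this
  have hsplit : (f.map (algebraMap F K)).Splits := by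
    have := (IsGalois.to_normal (F := F) (E := K)).splits (AdjoinRoot.root f)
    rwa [hmin] at this
  obtain ⟨r, z, hz, hza, hne⟩ := exists_conj φ₀ (AdjoinRoot.root f) a y hθ hya ha hsep hsplit
  -- the automorphism of `K` induced by `z`
  have hr : aeval r f = 0 := by
    apply φ₀.toRingHom.injective
    have h1 : φ₀ (aeval r f) = aeval (φ₀ r) f := (aeval_algHom_apply φ₀ r f).symm
    have h2 := semiconj_aeval hza f
    have h0 : aeval a f = 0 := minpoly.aeval F a
    rw [h0, mul_zero] at h2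
    have h3 : aeval (φ₀ r) f = 0 := by
      rcases mul_eq_zero.mp h2.symm with h | h
      · exact h
      · exact absurd h hz
    simp only [AlgHom.toRingHom_eq_coe, RingHom.coe_coe, map_zero]
    rw [h1, h3]
  let σ : K →ₐ[F] K := AdjoinRoot.liftAlgHom f (Algebra.ofId F K) r (by
    rw [← hr]; rfl)
  have hσ : ∀ p : F[X], σ (AdjoinRoot.mk f p) = aeval r p := by
    intro p
    simp only [σ]
    rfl
  let τ₀ : K ≃ₐ[F] K := AlgEquiv.ofBijective σ (AlgHom.bijective σ)
  have hconj₀ : ∀ k, z * φ₀ k = φ₀ (τ₀ k) * z := by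
    intro k
    obtain ⟨p, rfl⟩ := AdjoinRoot.mk_surjective k
    have h1 : τ₀ (AdjoinRoot.mk f p) = aeval r p := hσ p
    rw [h1, hφ, semiconj_aeval hza p, aeval_algHom_apply]
  have hroot_ne : ∀ ρ : K ≃ₐ[F] K, ρ (AdjoinRoot.root f) = AdjoinRoot.root f → ρ = 1 := by
    intro ρ hρ
    have : (ρ : K →ₐ[F] K) = AlgHom.id F K := AdjoinRoot.algHom_ext hρ
    ext k
    exact congrArg (fun g : K →ₐ[F] K => g k) this
  have hτ₀ : τ₀ ≠ 1 := by
    intro h
    apply hne
    have h1 : τ₀ (AdjoinRoot.root f) = r := by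
      have h2 : σ (AdjoinRoot.root f) = r := by
        have := hσ X
        simpa using this
      exact h2
    rw [h] at h1
    rw [← h1]
    exact hθ
  set m := orderOf τ₀ with hm
  have hmpos : 0 < m := orderOf_pos τ₀
  have hm1 : m ≠ 1 := fun h => hτ₀ (orderOf_eq_one_iff.mp h)
  set l := m.minFac with hl
  have hlp : l.Prime := Nat.minFac_prime hm1
  set m' := m / l with hm'
  have hmm : l * m' = m := Nat.mul_div_cancel' (Nat.minFac_dvd m)
  have hm'0 : m' ≠ 0 := by
    rintro h
    rw [h, mul_zero] at hmm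
    omega
  set τ₁ := τ₀ ^ m' with hτ₁
  have hord₁ : orderOf τ₁ = l := by
    rw [hτ₁, orderOf_pow_of_dvd hm'0 ⟨l, by rw [← hm, ← hmm, mul_comm]⟩, ← hm, ← hmm,
      Nat.mul_div_cancel _ (Nat.pos_of_ne_zero hm'0)]
  set z₁ := z ^ m' with hz₁
  have hz₁0 : z₁ ≠ 0 := pow_ne_zero _ hz
  have hconj₁ : ∀ k, z₁ * φ₀ k = φ₀ (τ₁ k) * z₁ := fun k => conj_pow hconj₀ m' k
  set c := z₁ ^ l with hc
  have hca : c * a = a * c := by
    have h1 := conj_pow hconj₁ l (AdjoinRoot.root f)
    rw [← hord₁, pow_orderOf_eq_one, hord₁, AlgEquiv.one_apply, hθ] at h1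
    exact h1
  let S : Subalgebra F D := Algebra.adjoin F {a, c}
  have haS : a ∈ S := Algebra.subset_adjoin (by simp)
  have hcS : c ∈ S := Algebra.subset_adjoin (by simp)
  have hgen : ∀ x ∈ ({a, c} : Set D), ∀ y ∈ ({a, c} : Set D), x * y = y * x := by
    rintro x (rfl | rfl) y (rfl | rfl)
    · rfl
    · exact hca.symm
    · exact hca
    · rfl
  have hS : ∀ x ∈ S, ∀ y ∈ S, x * y = y * x := by
    intro x hx y hy
    have := (Algebra.isMulCommutative_adjoin F hgen).is_comm.comm ⟨x, hx⟩ ⟨y, hy⟩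
    exact congrArg Subtype.val this
  have hfin : FiniteDimensional F S :=
    Module.Finite.iff_fg.mpr (fg_adjoin_pair a c X ha (hint c) (by simpa using hca))
  have hφS : ∀ k : K, φ₀ k ∈ S := by
    intro k
    obtain ⟨p, rfl⟩ := AdjoinRoot.mk_surjective k
    rw [hφ]
    exact Algebra.adjoin_mono (by simp) (aeval_mem_adjoin_singleton F a)
  have hza₁ : z₁ * a * z₁⁻¹ = φ₀ (τ₁ (AdjoinRoot.root f)) := by
    have := hconj₁ (AdjoinRoot.root f)
    rw [hθ] at this
    rw [this, mul_assoc, mul_inv_cancel₀ hz₁0, mul_one]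
  have hnorm : ∀ x ∈ S, z₁ * x * z₁⁻¹ ∈ S := by
    intro x hx
    induction hx using Algebra.adjoin_induction with
    | mem x hx =>
      rcases hx with rfl | rfl
      · rw [hza₁]; exact hφS _
      · have : z₁ * c * z₁⁻¹ = c := by
          rw [hc, ← pow_succ', pow_succ, mul_assoc, mul_inv_cancel₀ hz₁0, mul_one]
        rw [this]; exact hcS
    | algebraMap t =>
      rw [← Algebra.commutes, mul_assoc, mul_inv_cancel₀ hz₁0, mul_one]
      exact S.algebraMap_mem t
    | add x y _ _ hx hy =>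
      rw [mul_add, add_mul]; exact S.add_mem hx hy
    | mul x y _ _ hx hy =>
      have : z₁ * (x * y) * z₁⁻¹ = (z₁ * x * z₁⁻¹) * (z₁ * y * z₁⁻¹) := by
        calc z₁ * (x * y) * z₁⁻¹ = z₁ * x * (z₁⁻¹ * z₁) * y * z₁⁻¹ := by
              rw [inv_mul_cancel₀ hz₁0]; simp [mul_assoc]
          _ = _ := by simp [mul_assoc]
      rw [this]; exact S.mul_mem hx hy
  have hne₁ : z₁ * a * z₁⁻¹ ≠ a := by
    rw [hza₁]
    intro h
    rw [← hθ] at h
    have h1 := hroot_ne τ₁ (φ₀.toRingHom.injective h)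
    rw [h1, orderOf_one] at hord₁
    exact hlp.one_lt.ne hord₁
  exact apply_core hF hsq S hS z₁ hz₁0 hnorm l hlp hcS a haS hne₁

end Vale.Agent.P199
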