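import Mathlib
import Vale.Agent.Lib.P199.Quat
open Polynomial

namespace Vale.Agent.P199

universe u
variable {F D : Type u} [Field F] [DivisionRing D] [Algebra F D]

/-- The centraliser of a square root of `-1` is commutative. -/
lemma centralizer_comm (hF : AllCyclic F) [Algebra.IsAlgebraic F D] (w : D) (hw : w ^ 2 = -1) :
    ∀ x y : D, w * x = x * w → w * y = y * w → x * y = y * x := by
  intro x y hx hy
  by_contra hxy
  let C : Subalgebra F D := Subalgebra.centralizer F ({w} : Set D)
  have hmem : ∀ z : D, z ∈ C ↔ w * z = z * w := by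
    intro z
    rw [Subalgebra.mem_centralizer_iff]
    simp
  have hunit : ∀ a : C, IsUnit a ∨ a = 0 := by
    intro a
    by_cases ha : a = 0
    · exact Or.inr ha
    · left
      have ha' : (a : D) ≠ 0 := fun h => ha (Subtype.ext h)
      have hinv : (a : D)⁻¹ ∈ C := by
        rw [hmem]
        have h1 : w * (a : D) = (a : D) * w := (hmem a).mp a.2
        calc w * (a : D)⁻¹ = (a : D)⁻¹ * ((a : D) * w) * (a : D)⁻¹ := by
              rw [← mul_assoc, inv_mul_cancel₀ ha', one_mul]
          _ = (a : D)⁻¹ * (w * (a : D)) * (a : D)⁻¹ := by rw [h1]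
          _ = (a : D)⁻¹ * w := by
              rw [mul_assoc, mul_assoc, mul_inv_cancel₀ ha', mul_one]
      exact ⟨⟨a, (⟨(a : D)⁻¹, hinv⟩ : C), Subtype.ext (mul_inv_cancel₀ ha'),
        Subtype.ext (inv_mul_cancel₀ ha')⟩, rfl⟩
  let _ : DivisionRing C := DivisionRing.ofIsUnitOrEqZero hunit
  have halg : Algebra.IsAlgebraic F C :=
    ⟨fun a => (isAlgebraic_algHom_iff C.val Subtype.val_injective).mp
      (Algebra.IsAlgebraic.isAlgebraic (a : D))⟩
  have hne : (⟨x, (hmem x).mpr hx⟩ : C) * ⟨y, (hmem y).mpr hy⟩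
      ≠ ⟨y, (hmem y).mpr hy⟩ * ⟨x, (hmem x).mpr hx⟩ := by
    intro h
    exact hxy (congrArg Subtype.val h)
  obtain ⟨-, w', hw', k, hk⟩ := exists_quat (D := C) hF _ _ hne
  have hw'2 : (w' : D) ^ 2 = -1 := by
    have := congrArg Subtype.val hw'
    simpa using this
  have hcomm : w * (w' : D) = (w' : D) * w := (hmem w').mp w'.2
  have hprod : ((w' : D) - w) * ((w' : D) + w) = 0 := by
    have : ((w' : D) - w) * ((w' : D) + w)
        = (w' : D) ^ 2 - w ^ 2 + ((w' : D) * w - w * (w' : D)) := by noncomm_ring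
    rw [this, hw'2, hw, hcomm]; simp
  have hkc : w * (k : D) = (k : D) * w := (hmem k).mp k.2
  apply hk
  apply Subtype.ext
  show (w' : D) * (k : D) = (k : D) * (w' : D)
  rcases mul_eq_zero.mp hprod with h | h
  · rw [sub_eq_zero.mp h]; exact hkc
  · rw [eq_neg_of_add_eq_zero_left h, neg_mul, mul_neg, hkc]

/-- Finitely many pairwise commuting integral elements generate a finite module. -/
lemma fg_adjoin_comm (T : Set D) (hT : T.Finite) (hcomm : ∀ x ∈ T, ∀ y ∈ T, x * y = y * x)
    (hint : ∀ x ∈ T, IsIntegral F x) : (Subalgebra.toSubmodule (Algebra.adjoin F T)).FG := by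
  let B := Algebra.adjoin F T
  have hB := Algebra.isMulCommutative_adjoin F hcomm
  let _ : CommRing B :=
    { (inferInstance : Ring B) with mul_comm := fun a b => hB.is_comm.comm a b }
  have h1 : (Subalgebra.toSubmodule (Algebra.adjoin F ((↑) ⁻¹' T : Set B))).FG :=
    fg_adjoin_of_finite (hT.preimage Subtype.val_injective.injOn) (fun x hx =>
      (isIntegral_algHom_iff B.val Subtype.val_injective).mp (hint x hx))
  rw [Algebra.adjoin_adjoin_coe_preimage] at h1
  have : Module.Finite F B := ⟨by simpa using h1⟩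
  exact Module.Finite.iff_fg.mp this

end Vale.Agent.P199
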