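import Mathlib
import Vale.Agent.Lib.P199.Real
open Polynomial

namespace Vale.Agent.P199

universe u
variable {F D : Type u} [Field F] [DivisionRing D] [Algebra F D]

/-- The quaternionic structure of a noncommutative algebraic division algebra over a field all of
whose finite extensions are cyclic. -/
theorem quat_structure (hF : AllCyclic F) [Algebra.IsAlgebraic F D] (y a : D)
    (hya : y * a ≠ a * y) :
    (2 : D) ≠ 0 ∧ ∃ w k : D, w ^ 2 = -1 ∧ k ≠ 0 ∧ w * k = -(k * w) ∧
      (∀ x y : D, w * x = x * w → w * y = y * w → x * y = y * x) ∧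
      ∀ x : D, ∃ c₁ c₂ : D, w * c₁ = c₁ * w ∧ w * c₂ = c₂ * w ∧ 2 * x = c₁ + k * c₂ := by
  obtain ⟨h2, w, hw, k₀, hk₀⟩ := exists_quat hF y a hya
  have hC := centralizer_comm hF w hw
  have hww : w * w = -1 := by rw [← pow_two, hw]
  have two : (2 : D) ≠ 0 := by
    intro h
    apply h2
    have : (1 : D) + 1 = 0 := by rw [one_add_one_eq_two, h]
    exact eq_neg_of_add_eq_zero_left this
  set k : D := k₀ + w * k₀ * w with hk
  have hwk : w * k = -(k * w) := by
    have e1 : w * k = w * k₀ + (w * w) * k₀ * w := by rw [hk]; noncomm_ring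
    have e2 : k * w = k₀ * w + w * k₀ * (w * w) := by rw [hk]; noncomm_ring
    rw [e1, e2, hww]; noncomm_ring
  have hk0 : k ≠ 0 := by
    intro h
    apply hk₀
    have e1 : w * k = w * k₀ + (w * w) * k₀ * w := by rw [hk]; noncomm_ring
    rw [h, mul_zero, hww] at e1
    have : w * k₀ - k₀ * w = 0 := by rw [e1]; noncomm_ring
    exact sub_eq_zero.mp this
  have hwki : w * k⁻¹ = -(k⁻¹ * w) := by
    have h1 : k⁻¹ * (w * k) * k⁻¹ = k⁻¹ * (-(k * w)) * k⁻¹ := by rw [hwk]
    have h3 : k⁻¹ * (w * k) * k⁻¹ = k⁻¹ * w := by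
      rw [mul_assoc, mul_assoc, mul_inv_cancel₀ hk0, mul_one]
    have h4 : k⁻¹ * (-(k * w)) * k⁻¹ = -(w * k⁻¹) := by
      rw [mul_neg, ← mul_assoc, inv_mul_cancel₀ hk0, one_mul, neg_mul]
    rw [h3, h4] at h1
    rw [h1, neg_neg]
  refine ⟨two, w, k, hw, hk0, hwk, hC, fun x => ⟨x - w * x * w, k⁻¹ * (x + w * x * w), ?_, ?_, ?_⟩⟩
  · have e1 : w * (x - w * x * w) = w * x - (w * w) * x * w := by noncomm_ring
    have e2 : (x - w * x * w) * w = x * w - w * x * (w * w) := by noncomm_ring
    rw [e1, e2, hww]; noncomm_ring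
  · have e0 : w * (x + w * x * w) = -((x + w * x * w) * w) := by
      have e1 : w * (x + w * x * w) = w * x + (w * w) * x * w := by noncomm_ring
      have e2 : (x + w * x * w) * w = x * w + w * x * (w * w) := by noncomm_ring
      rw [e1, e2, hww]; noncomm_ring
    rw [← mul_assoc, hwki, neg_mul, mul_assoc, e0, mul_neg, neg_neg]
    simp only [mul_assoc]
  · rw [← mul_assoc, mul_inv_cancel₀ hk0, one_mul]; noncomm_ring

theorem locallyFinite_of_allCyclic (hF : AllCyclic F) [Algebra.IsAlgebraic F D] (S : Finset D) :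
    (Subalgebra.toSubmodule (Algebra.adjoin F (S : Set D))).FG := by
  classical
  have hint : ∀ x : D, IsIntegral F x := fun x => (Algebra.IsAlgebraic.isAlgebraic x).isIntegral
  by_cases hc : ∀ x y : D, x * y = y * x
  · exact fg_adjoin_comm (S : Set D) S.finite_toSet (fun x _ y _ => hc x y) (fun x _ => hint x)
  push Not at hc
  obtain ⟨y, a, hya⟩ := hc
  obtain ⟨two, w, k, hw, hk0, hwk, hC, hdec⟩ := quat_structure hF y a hya
  choose c₁ c₂ hc₁ hc₂ hx using hdec
  have hwki : w * k⁻¹ = -(k⁻¹ * w) := by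
    have h1 : k⁻¹ * (w * k) * k⁻¹ = k⁻¹ * (-(k * w)) * k⁻¹ := by rw [hwk]
    have h3 : k⁻¹ * (w * k) * k⁻¹ = k⁻¹ * w := by
      rw [mul_assoc, mul_assoc, mul_inv_cancel₀ hk0, mul_one]
    have h4 : k⁻¹ * (-(k * w)) * k⁻¹ = -(w * k⁻¹) := by
      rw [mul_neg, ← mul_assoc, inv_mul_cancel₀ hk0, one_mul, neg_mul]
    rw [h3, h4] at h1
    rw [h1, neg_neg]
  have hkk : w * (k * k) = (k * k) * w := by
    rw [← mul_assoc, hwk, neg_mul, mul_assoc, hwk, mul_neg, neg_neg, mul_assoc]
  have hconjC : ∀ c : D, w * c = c * w → w * (k * c * k⁻¹) = (k * c * k⁻¹) * w := by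
    intro c hcw
    calc w * (k * c * k⁻¹) = (w * k) * c * k⁻¹ := by simp only [mul_assoc]
      _ = -(k * (w * c) * k⁻¹) := by rw [hwk]; simp only [neg_mul, mul_assoc]
      _ = -(k * c * (w * k⁻¹)) := by rw [hcw]; simp only [mul_assoc]
      _ = (k * c * k⁻¹) * w := by rw [hwki]; simp only [mul_neg, neg_neg, mul_assoc]
  let T₀ : Finset D := S.image c₁ ∪ S.image c₂
  let T : Finset D := T₀ ∪ T₀.image (fun c => k * c * k⁻¹)
  have hT₀ : ∀ c ∈ T₀, w * c = c * w := by
    intro c hcT
    rcases Finset.mem_union.mp hcT with h | h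
    · obtain ⟨s, -, rfl⟩ := Finset.mem_image.mp h
      exact hc₁ s
    · obtain ⟨s, -, rfl⟩ := Finset.mem_image.mp h
      exact hc₂ s
  have hT : ∀ c ∈ T, w * c = c * w := by
    intro c hcT
    rcases Finset.mem_union.mp hcT with h | h
    · exact hT₀ c h
    · obtain ⟨s, hs, rfl⟩ := Finset.mem_image.mp h
      exact hconjC s (hT₀ s hs)
  let A₀ : Subalgebra F D := Algebra.adjoin F (T : Set D)
  have hA₀fg : (Subalgebra.toSubmodule A₀).FG :=
    fg_adjoin_comm (T : Set D) T.finite_toSet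
      (fun x hx y hy => hC x y (hT x hx) (hT y hy)) (fun x _ => hint x)
  have hclos : ∀ α ∈ A₀, ∃ α' ∈ A₀, k * α = α' * k := by
    intro α hα
    induction hα using Algebra.adjoin_induction with
    | mem x hx =>
      rcases Finset.mem_union.mp (Finset.mem_coe.mp hx) with h | h
      · refine ⟨k * x * k⁻¹, Algebra.subset_adjoin (Finset.mem_coe.mpr
          (Finset.mem_union_right _ (Finset.mem_image_of_mem _ h))), ?_⟩
        rw [mul_assoc, inv_mul_cancel₀ hk0, mul_one]
      · obtain ⟨s, hs, rfl⟩ := Finset.mem_image.mp h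
        refine ⟨s, Algebra.subset_adjoin (Finset.mem_coe.mpr (Finset.mem_union_left _ hs)), ?_⟩
        have h1 : (k * k) * s = s * (k * k) := hC _ _ hkk (hT₀ s hs)
        calc k * (k * s * k⁻¹) = ((k * k) * s) * k⁻¹ := by simp only [mul_assoc]
          _ = s * k * (k * k⁻¹) := by rw [h1]; simp only [mul_assoc]
          _ = s * k := by rw [mul_inv_cancel₀ hk0, mul_one]
    | algebraMap r =>
      exact ⟨algebraMap F D r, A₀.algebraMap_mem r, (Algebra.commutes r k).symm⟩
    | add x y _ _ hx hy =>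
      obtain ⟨x', hx', ex⟩ := hx
      obtain ⟨y', hy', ey⟩ := hy
      exact ⟨x' + y', A₀.add_mem hx' hy', by rw [mul_add, ex, ey, add_mul]⟩
    | mul x y _ _ hx hy =>
      obtain ⟨x', hx', ex⟩ := hx
      obtain ⟨y', hy', ey⟩ := hy
      exact ⟨x' * y', A₀.mul_mem hx' hy', by
        rw [← mul_assoc, ex, mul_assoc, ey, mul_assoc]⟩
  set A := Subalgebra.toSubmodule A₀ with hA
  set Z := Subalgebra.toSubmodule (Algebra.adjoin F {k}) with hZ
  set W := A * Z with hW
  have hWfg : W.FG := hA₀fg.mul ((hint k).fg_adjoin_singleton)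
  have h1 : (1 : D) ∈ W := by
    have : (1 : D) * 1 ∈ A * Z := Submodule.mul_mem_mul
      (show (1 : D) ∈ A₀ from one_mem _)
      (show (1 : D) ∈ Algebra.adjoin F {k} from one_mem _)
    simpa using this
  have hAW : ∀ α ∈ A₀, ∀ v ∈ W, α * v ∈ W := by
    intro α hα v hv
    refine Submodule.mul_induction_on hv ?_ ?_
    · intro β hβ ζ hζ
      rw [← mul_assoc]
      exact Submodule.mul_mem_mul (show α * β ∈ A₀ from mul_mem hα hβ) hζ
    · intro x y hx hy
      rw [mul_add]; exact add_mem hx hy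
  have hkW : ∀ v ∈ W, k * v ∈ W := by
    intro v hv
    refine Submodule.mul_induction_on hv ?_ ?_
    · intro β hβ ζ hζ
      obtain ⟨β', hβ', e⟩ := hclos β hβ
      rw [← mul_assoc, e, mul_assoc]
      exact Submodule.mul_mem_mul hβ'
        (show k * ζ ∈ Algebra.adjoin F {k} from
          mul_mem (Algebra.subset_adjoin (Set.mem_singleton k)) hζ)
    · intro x y hx hy
      rw [mul_add]; exact add_mem hx hy
  have two' : (2 : F) ≠ 0 := by
    intro h
    apply two
    have h5 := congrArg (algebraMap F D) h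
    rwa [map_ofNat, map_zero] at h5
  have hsW : ∀ s ∈ S, ∀ v ∈ W, s * v ∈ W := by
    intro s hs v hv
    have hc₁A : c₁ s ∈ A₀ := Algebra.subset_adjoin (Finset.mem_coe.mpr
      (Finset.mem_union_left _ (Finset.mem_union_left _ (Finset.mem_image_of_mem _ hs))))
    have hc₂A : c₂ s ∈ A₀ := Algebra.subset_adjoin (Finset.mem_coe.mpr
      (Finset.mem_union_left _ (Finset.mem_union_right _ (Finset.mem_image_of_mem _ hs))))
    have h3 : (2 * s) * v ∈ W := by
      rw [hx s, add_mul, mul_assoc]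
      exact add_mem (hAW _ hc₁A v hv) (hkW _ (hAW _ hc₂A v hv))
    have h4 : s * v = (2 : F)⁻¹ • ((2 * s) * v) := by
      rw [Algebra.smul_def, map_inv₀, map_ofNat, mul_assoc, ← mul_assoc, inv_mul_cancel₀ two,
        one_mul]
    rw [h4]
    exact W.smul_mem _ h3
  have key : ∀ x ∈ Algebra.adjoin F (S : Set D), ∀ v ∈ W, x * v ∈ W := by
    intro x hx
    induction hx using Algebra.adjoin_induction with
    | mem x hx => exact hsW x (Finset.mem_coe.mp hx)
    | algebraMap r =>
      intro v hv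
      rw [← Algebra.smul_def]
      exact W.smul_mem r hv
    | add x y _ _ hx hy =>
      intro v hv
      rw [add_mul]; exact add_mem (hx v hv) (hy v hv)
    | mul x y _ _ hx hy =>
      intro v hv
      rw [mul_assoc]; exact hx _ (hy v hv)
  have hle : Subalgebra.toSubmodule (Algebra.adjoin F (S : Set D)) ≤ W := by
    intro x hx
    have := key x hx 1 h1
    simpa using this
  exact Submodule.FG.of_le hWfg hle

end Vale.Agent.P199
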